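import Vale.Agent.P228.Main

open Vale.Agent.P228

/-- The Hilbert-Smith conjecture: the p-adic integers do not act faithfully and continuously
on a connected topological manifold. -/
theorem Vale.Agent.Results.P228.HilbertSmith.result (p : ℕ) [Fact p.Prime] (n : ℕ) (M : Type*)
    [TopologicalSpace M] [T2Space M] [SecondCountableTopology M]
    [ChartedSpace (EuclideanSpace ℝ (Fin n)) M] [ConnectedSpace M]
    [AddAction ℤ_[p] M] [ContinuousVAdd ℤ_[p] M] : ¬ FaithfulVAdd ℤ_[p] M := by
  intro hf
  let G : GAct p (M × (Fin n → ℝ)) :=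
    { a := fun h x => (h +ᵥ x.1, x.2)
      cont := (continuous_fst.vadd (continuous_fst.comp continuous_snd)).prodMk
        (continuous_snd.comp continuous_snd)
      zero := fun x => by simp
      add := fun h h' x => by simp [add_vadd] }
  let ψ : (EuclideanSpace ℝ (Fin n) × (Fin n → ℝ)) ≃ₜ E n :=
    { toFun := fun q i => if i.2 then q.2 i.1 else q.1 i.1
      invFun := fun y => (WithLp.toLp 2 fun i => y (i, false), fun i => y (i, true))
      left_inv := fun q => by ext i <;> simp
      right_inv := fun y => by
        funext ⟨i, b⟩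
        cases b <;> simp
      continuous_toFun := continuous_pi fun ⟨i, b⟩ => by
        cases b
        · simp only [Bool.false_eq_true, if_false]; fun_prop
        · simp only [if_true]; fun_prop
      continuous_invFun := by fun_prop }
  have hM : HasCharts (M × (Fin n → ℝ)) n := fun x =>
    ⟨((chartAt (EuclideanSpace ℝ (Fin n)) x.1).prod (OpenPartialHomeomorph.refl _)).trans
      ψ.toOpenPartialHomeomorph, by simp⟩
  obtain ⟨j, hj⟩ := no_gact hM G
  have h0 : (p : ℤ_[p]) ^ j * 1 = 0 := hf.eq_of_vadd_eq_vadd (P := M) fun x => by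
    have h1 : (x, (0 : Fin n → ℝ)) ∈ (G.pow j).Fix := hj ▸ Set.mem_univ _
    rw [zero_vadd]
    exact congrArg Prod.fst (h1 1)
  have hp : (p : ℤ_[p]) ≠ 0 := by exact_mod_cast (Fact.out : p.Prime).ne_zero
  exact pow_ne_zero j hp (by simpa using h0)
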